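import Mathlib
import Vale.Agent.P121.Main

/-!
An absolutely continuous probability measure on `ℝ³` with finite three-marginal Coulomb value
and no optimal Monge plan.
-/

namespace Vale.Agent.Results.P121.NoOptimalMap

open MeasureTheory
open scoped ENNReal

/-- Euclidean three-space. -/
abbrev R3 : Type := EuclideanSpace ℝ (Fin 3)

/-- The Coulomb cost `1/|x-y| + 1/|x-z| + 1/|y-z|` with values in `[0, ∞]`
(the inverse of `0` is `∞`). -/
noncomputable def coulomb (x y z : R3) : ℝ≥0∞ :=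
  (edist x y)⁻¹ + (edist x z)⁻¹ + (edist y z)⁻¹

/-- `π` is a Borel measure on `(ℝ³)³` whose three coordinate marginals are `μ`. -/
def IsCoupling (μ : Measure R3) (π : Measure (R3 × R3 × R3)) : Prop :=
  π.map (fun p => p.1) = μ ∧ π.map (fun p => p.2.1) = μ ∧ π.map (fun p => p.2.2) = μ

/-- The Kantorovich value: the infimum of the cost over all couplings. -/
noncomputable def kantorovich (μ : Measure R3) : ℝ≥0∞ :=
  ⨅ (π : Measure (R3 × R3 × R3)) (_ : IsCoupling μ π), ∫⁻ p, coulomb p.1 p.2.1 p.2.2 ∂π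

/-- `(T₂, T₃)` is an optimal Monge plan: Borel maps that preserve `μ`, with cost equal to the
Kantorovich value. -/
def IsOptimalMonge (μ : Measure R3) (T₂ T₃ : R3 → R3) : Prop :=
  Measurable T₂ ∧ Measurable T₃ ∧ μ.map T₂ = μ ∧ μ.map T₃ = μ ∧
    ∫⁻ x, coulomb x (T₂ x) (T₃ x) ∂μ = kantorovich μ

/-- There is an absolutely continuous probability measure on `ℝ³` with finite Kantorovich value
and without optimal Monge plan. -/
theorem result :
    ∃ μ : Measure R3, IsProbabilityMeasure μ ∧ μ ≪ volume ∧ kantorovich μ < ⊤ ∧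
      ¬ ∃ T₂ T₃ : R3 → R3, IsOptimalMonge μ T₂ T₃ := by
  have h1 : ‖(EuclideanSpace.single 0 1 : R3)‖ = 1 := by simp
  have h2 : ‖(EuclideanSpace.single 1 1 : R3)‖ = 1 := by simp
  have h12 : inner ℝ (EuclideanSpace.single 0 1 : R3) (EuclideanSpace.single 1 1 : R3) = 0 := by
    rw [EuclideanSpace.inner_single_left]
    simp
  obtain ⟨μ, hμ, hac, V, hV, hlow, ⟨π, p1, p2, p3, hπ⟩, hno⟩ :=
    Vale.Agent.P121.main (volume : Measure R3) h1 h2 h12
  have hk : kantorovich μ = V := by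
    apply le_antisymm
    · unfold kantorovich
      exact (iInf₂_le π ⟨p1, p2, p3⟩).trans hπ.le
    · unfold kantorovich
      exact le_iInf₂ fun π' hπ' => hlow π' hπ'.1 hπ'.2.1 hπ'.2.2
  refine ⟨μ, hμ, hac, by rw [hk]; exact hV.lt_top, ?_⟩
  rintro ⟨T₂, T₃, m2, m3, t2, t3, hopt⟩
  exact hno T₂ T₃ m2 m3 t2 t3 (hopt.trans hk)

end Vale.Agent.Results.P121.NoOptimalMap
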